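import Vale.Agent.P139.H203.EnergyB
import Vale.Agent.P139.R3.H36.Laws
import Vale.Agent.P139.R3.H156.Reverse

/-! # P139: mass and energy are constant along solutions and invariant under time reversal -/

open Set Metric Filter Topology MeasureTheory
open scoped NNReal ENNReal ComplexConjugate

namespace Vale.Agent.P139.R3.H966

open Vale.Agent.P139.A Vale.Agent.P139.A.WA Vale.Agent.P139.H836 Vale.Agent.P139.H203
  Vale.Agent.P139.R3.H36 Vale.Agent.P139.R3.H156

theorem massOf_eq {d k : ℕ} {a : Lat d → ℂ} {w : WA d k} (h : ∀ n, coef w n = a n) :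
    massOf a = mass w := by
  have h1 := (hasSum_mass w).tsum_eq
  simp only [h] at h1
  exact h1

theorem energyOf_eq {d k : ℕ} {a : Lat d → ℂ} {w : WA d k} (h : ∀ n, coef w n = a n) (m : ℕ) :
    energyOf (2 * m + 1) a = (∑' n, sqNorm n * ‖a n‖ ^ 2) / 2 + V m w := by
  have h1 : (fun x => (‖series a x‖ : ℂ) ^ (2 * m + 1 + 1)) =
      series (coef ((w * conjL w) ^ (m + 1))) := by
    funext x
    have h2 : ev w x = series a x := by
      unfold ev
      congr 1
      funext n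
      exact h n
    have h3 : series (coef ((w * conjL w) ^ (m + 1))) x = ev ((w * conjL w) ^ (m + 1)) x := rfl
    rw [h3, ev_pow, ev_mul, ev_conjL, h2, Complex.mul_conj', ← pow_mul]
    congr 1
  unfold energyOf V
  rw [h1, fourierCoef_series ((w * conjL w) ^ (m + 1)).summable_norm]
  have h4 : (((2 * m + 1 : ℕ) : ℝ) + 1) = 2 * m + 2 := by push_cast; ring
  rw [h4]

theorem cons {d m k : ℕ} (hk : d < 2 * k) (hk2 : 2 ≤ k) {T : ℝ} {u : ℝ → Lat d → ℂ}
    (hu : IsSolution d (2 * m + 1) k T u) :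
    ∀ t ∈ Set.Icc 0 T, massOf (u t) = massOf (u 0) ∧
      energyOf (2 * m + 1) (u t) = energyOf (2 * m + 1) (u 0) := by
  intro t ht
  have h0 : (0 : ℝ) ∈ Set.Icc 0 T := ⟨le_rfl, ht.1.trans ht.2⟩
  obtain ⟨-, h1, h2⟩ := laws hk hk2 hu t ht
  rw [massOf_eq (coef_curve hk hu ht), massOf_eq (coef_curve hk hu h0),
    energyOf_eq (coef_curve hk hu ht), energyOf_eq (coef_curve hk hu h0)]
  exact ⟨h1, h2⟩

theorem mass_cj {d : ℕ} (a : Lat d → ℂ) :
    massOf (fun n => (starRingEnd ℂ) (a (-n))) = massOf a := by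
  unfold massOf
  simp only [RCLike.norm_conj]
  exact Equiv.tsum_eq (Equiv.neg (Lat d)) (fun n => ‖a n‖ ^ 2)

theorem energy_cj {d : ℕ} (p : ℕ) (a : Lat d → ℂ) :
    energyOf p (fun n => (starRingEnd ℂ) (a (-n))) = energyOf p a := by
  have h1 : (∑' n : Lat d, sqNorm n * ‖(starRingEnd ℂ) (a (-n))‖ ^ 2) =
      ∑' n, sqNorm n * ‖a n‖ ^ 2 := by
    have h2 := Equiv.tsum_eq (Equiv.neg (Lat d)) (fun n => sqNorm n * ‖a n‖ ^ 2)
    rw [← h2]
    refine tsum_congr fun n => ?_
    simp only [Equiv.neg_apply, sqNorm_neg', RCLike.norm_conj]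
  have h3 : ∀ x, ‖series (fun n => (starRingEnd ℂ) (a (-n))) x‖ = ‖series a x‖ := by
    intro x
    have h4 := series_cj a x
    unfold cj at h4
    rw [h4, RCLike.norm_conj]
  unfold energyOf
  simp only [h1, h3]

end Vale.Agent.P139.R3.H966
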