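import Vale.Agent.P139.H203.Prob

/-! # P139: finitely supported rational sequences are dense in `H^k` -/

open Set Metric Filter Topology MeasureTheory

namespace Vale.Agent.P139.R3.H966

open Vale.Agent.P139.A Vale.Agent.P139.A.WA Vale.Agent.P139.H836 Vale.Agent.P139.H203

theorem exists_rat_near (z : ℂ) {ε : ℝ} (hε : 0 < ε) :
    ∃ p : ℚ × ℚ, ‖(((p.1 : ℝ) : ℂ) + ((p.2 : ℝ) : ℂ) * Complex.I) + z‖ < ε := by
  obtain ⟨p, hp1, hp2⟩ := exists_rat_btwn (show -z.re - ε / 2 < -z.re + ε / 2 by linarith)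
  obtain ⟨q, hq1, hq2⟩ := exists_rat_btwn (show -z.im - ε / 2 < -z.im + ε / 2 by linarith)
  refine ⟨(p, q), ?_⟩
  refine lt_of_le_of_lt (Complex.norm_le_abs_re_add_abs_im _) ?_
  have h1 : ((((p : ℝ) : ℂ) + ((q : ℝ) : ℂ) * Complex.I) + z).re = p + z.re := by simp
  have h2 : ((((p : ℝ) : ℂ) + ((q : ℝ) : ℂ) * Complex.I) + z).im = q + z.im := by simp
  show |((((p : ℝ) : ℂ) + ((q : ℝ) : ℂ) * Complex.I) + z).re| +
    |((((p : ℝ) : ℂ) + ((q : ℝ) : ℂ) * Complex.I) + z).im| < ε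
  rw [h1, h2]
  have h3 : |(p : ℝ) + z.re| < ε / 2 := by
    rw [abs_lt]; constructor <;> linarith
  have h4 : |(q : ℝ) + z.im| < ε / 2 := by
    rw [abs_lt]; constructor <;> linarith
  linarith

theorem exists_rat_close {d k : ℕ} {a : Lat d → ℂ} (ha : MemSobolev k a) {δ : ℝ} (hδ : 0 < δ) :
    ∃ r : Lat d →₀ ℚ × ℚ,
      sobolevSq k (fun n => ((((r n).1 : ℝ) : ℂ) + (((r n).2 : ℝ) : ℂ) * Complex.I) + a n) < δ := by
  classical
  set f : Lat d → ℝ := fun n => (1 + sqNorm n) ^ k * ‖a n‖ ^ 2 with hf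
  have hsum : HasSum f (∑' n, f n) := Summable.hasSum ha
  obtain ⟨s, hs⟩ : ∃ s : Finset (Lat d), (∑' n, f n) - δ / 2 < ∑ n ∈ s, f n :=
    (hsum.eventually (lt_mem_nhds (show (∑' n, f n) - δ / 2 < ∑' n, f n by linarith))).exists
  set η : ℝ := δ / (2 * (s.card + 1)) with hη
  have hη0 : 0 < η := by positivity
  have hch : ∀ n : Lat d, ∃ p : ℚ × ℚ, (1 + sqNorm n) ^ k *
      ‖(((p.1 : ℝ) : ℂ) + ((p.2 : ℝ) : ℂ) * Complex.I) + a n‖ ^ 2 < η := by
    intro n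
    have hw := weight_pos k n
    obtain ⟨p, hp⟩ := exists_rat_near (a n) (Real.sqrt_pos.2 (div_pos hη0 hw))
    refine ⟨p, ?_⟩
    have h1 : ‖(((p.1 : ℝ) : ℂ) + ((p.2 : ℝ) : ℂ) * Complex.I) + a n‖ ^ 2 <
        η / (1 + sqNorm n) ^ k := by
      have h2 := pow_lt_pow_left₀ hp (norm_nonneg _) two_ne_zero
      rwa [Real.sq_sqrt (div_pos hη0 hw).le] at h2
    rw [lt_div_iff₀ hw] at h1
    linarith
  choose p hp using hch
  refine ⟨Finsupp.onFinset s (fun n => if n ∈ s then p n else 0) (fun n hn => ?_), ?_⟩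
  · by_contra h
    exact hn (if_neg h)
  set z : Lat d → ℂ := fun n => ((((if n ∈ s then p n else 0 : ℚ × ℚ).1 : ℝ) : ℂ) +
    (((if n ∈ s then p n else 0 : ℚ × ℚ).2 : ℝ) : ℂ) * Complex.I) with hz
  set g : Lat d → ℝ := fun n => (1 + sqNorm n) ^ k * ‖z n + a n‖ ^ 2 with hg
  have hgf : ∀ n, n ∉ s → g n = f n := by
    intro n hn
    simp only [hg, hf, hz, if_neg hn]
    simp
  have hgs : ∀ n ∈ s, g n < η := by
    intro n hn
    simp only [hg, hz, if_pos hn]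
    exact hp n
  have h1 : HasSum (fun n => g n - f n) (∑ n ∈ s, (g n - f n)) :=
    hasSum_sum_of_ne_finset_zero fun n hn => by rw [hgf n hn, sub_self]
  have h2 : HasSum g (∑' n, f n + ∑ n ∈ s, (g n - f n)) := by
    have h3 := hsum.add h1
    refine h3.congr_fun ?_
    intro n
    ring
  have h3 : sobolevSq k (fun n => z n + a n) = ∑' n, f n + ∑ n ∈ s, (g n - f n) := h2.tsum_eq
  have h4 : ∑ n ∈ s, g n ≤ δ / 2 := by
    have h5 : ∑ n ∈ s, g n ≤ s.card • η := Finset.sum_le_card_nsmul _ _ _ fun n hn => (hgs n hn).le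
    refine h5.trans ?_
    rw [nsmul_eq_mul, hη, mul_div_assoc', div_le_div_iff₀ (by positivity) two_pos]
    nlinarith
  show sobolevSq k (fun n => z n + a n) < δ
  rw [h3, Finset.sum_sub_distrib]
  linarith

end Vale.Agent.P139.R3.H966
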