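import Vale.Agent.P139.H203.Prob

/-! # P139: full support of the law of the datum in `H^k` for `α > k + d/2` -/

open Set Metric Filter Topology MeasureTheory ProbabilityTheory
open scoped NNReal ENNReal ComplexConjugate

namespace Vale.Agent.P139.R3.H966

open Vale.Agent.P139.A Vale.Agent.P139.A.WA Vale.Agent.P139.H836 Vale.Agent.P139.H203

variable {d k : ℕ}

theorem gauss_pos (a : ℝ) {r : ℝ} (hr : 0 < r) :
    0 < gaussianReal 0 (1 / 2) (Ioo (a - r) (a + r)) := by
  rw [pos_iff_ne_zero]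
  intro h
  have h1 := gaussianReal_absolutelyContinuous' 0 (v := 1 / 2) (by norm_num) h
  rw [Real.volume_Ioo] at h1
  simp only [ENNReal.ofReal_eq_zero] at h1
  linarith

theorem std_pos (c : ℂ) {r : ℝ} (hr : 0 < r) : 0 < stdComplexGaussian (closedBall c r) := by
  unfold stdComplexGaussian
  rw [Measure.map_apply measurable_mkC measurableSet_closedBall]
  refine lt_of_lt_of_le ?_ (measure_mono
    (s := Ioo (c.re - r / 2) (c.re + r / 2) ×ˢ Ioo (c.im - r / 2) (c.im + r / 2)) ?_)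
  · rw [Measure.prod_prod]
    exact ENNReal.mul_pos (gauss_pos c.re (half_pos hr)).ne' (gauss_pos c.im (half_pos hr)).ne'
  · rintro ⟨x, y⟩ ⟨hx, hy⟩
    simp only [mem_preimage, mem_closedBall, dist_eq_norm]
    have h1 := Complex.norm_le_abs_re_add_abs_im ((⟨x, y⟩ : ℂ) - c)
    simp only [Complex.sub_re, Complex.sub_im] at h1
    have h2 : |x - c.re| ≤ r / 2 := abs_le.2 ⟨by linarith [hx.1], by linarith [hx.2]⟩
    have h3 : |y - c.im| ≤ r / 2 := abs_le.2 ⟨by linarith [hy.1], by linarith [hy.2]⟩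
    linarith

theorem std_moment_sq : ∫⁻ z, ‖z‖ₑ ^ 2 ∂stdComplexGaussian < ∞ := by
  unfold stdComplexGaussian
  rw [lintegral_map (by fun_prop) measurable_mkC]
  have h1 : Integrable (fun x : ℝ => x ^ 2) (gaussianReal 0 (1 / 2)) :=
    (memLp_id_gaussianReal 2).integrable_sq
  have h2 : Integrable (fun z : ℝ × ℝ => z.1 ^ 2)
      ((gaussianReal 0 (1 / 2)).prod (gaussianReal 0 (1 / 2))) := h1.comp_fst _
  have h3 : Integrable (fun z : ℝ × ℝ => z.2 ^ 2)
      ((gaussianReal 0 (1 / 2)).prod (gaussianReal 0 (1 / 2))) := h1.comp_snd _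
  refine lt_of_le_of_lt
    (lintegral_mono (g := fun z : ℝ × ℝ => ‖z.1 ^ 2‖ₑ + ‖z.2 ^ 2‖ₑ) fun z => ?_) ?_
  · show ‖(⟨z.1, z.2⟩ : ℂ)‖ₑ ^ 2 ≤ ‖z.1 ^ 2‖ₑ + ‖z.2 ^ 2‖ₑ
    rw [← ofReal_norm, ← ofReal_norm, ← ofReal_norm, ← ENNReal.ofReal_pow (norm_nonneg _),
      ← ENNReal.ofReal_add (norm_nonneg _) (norm_nonneg _)]
    apply ENNReal.ofReal_le_ofReal
    rw [Complex.sq_norm, Complex.normSq_mk, Real.norm_of_nonneg (sq_nonneg _),
      Real.norm_of_nonneg (sq_nonneg _)]
    nlinarith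
  · rw [lintegral_add_left (by fun_prop)]
    exact ENNReal.add_lt_top.2 ⟨h2.2, h3.2⟩

theorem meas_tail {Ω : Type*} [MeasurableSpace Ω] (g : Lat d → Ω → ℂ) (s : Finset (Lat d))
    (c : Lat d → ℝ≥0∞) (h : ∀ n ∉ s, Measurable (g n)) :
    Measurable fun ω => ∑' n, if n ∈ s then 0 else c n * ‖g n ω‖ₑ ^ 2 := by
  refine Measurable.tsum fun n => ?_
  by_cases hn : n ∈ s
  · simp only [hn, if_true]
    exact measurable_const
  · simp only [hn, if_false]
    exact ((h n hn).enorm.pow_const 2).const_mul _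

theorem meas_low {Ω : Type*} [MeasurableSpace Ω] (g : Lat d → Ω → ℂ) (s : Finset (Lat d))
    (a : Lat d → ℂ) (r : ℝ) (h : ∀ n ∈ s, Measurable (g n)) :
    MeasurableSet (⋂ n ∈ s, g n ⁻¹' closedBall (a n) r) :=
  Finset.measurableSet_biInter _ fun n hn => h n hn measurableSet_closedBall

theorem tail_lt {q : Lat d → ℝ} (hq : Summable q) (s : Finset (Lat d)) :
    ∑' n, (if n ∈ s then 0 else q n) = (∑' n, q n) - ∑ n ∈ s, q n := by
  classical
  have h1 : ∀ n, (if n ∈ s then 0 else q n) = q n - (if n ∈ s then q n else 0) := fun n => by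
    split_ifs <;> simp
  have h2 : Summable fun n => if n ∈ s then q n else 0 :=
    summable_of_ne_finset_zero (s := s) fun n hn => by simp [hn]
  have h3 : (∑' n, if n ∈ s then q n else 0) = ∑ n ∈ s, q n := by
    rw [tsum_eq_sum (s := s) (fun n hn => if_neg hn)]
    exact Finset.sum_congr rfl fun n hn => if_pos hn
  rw [tsum_congr h1, hq.tsum_sub h2, h3]

/-- A weighted `ℓ²` ball around any point of the space has positive probability. -/
theorem ball_pos {Ω : Type*} [mΩ : MeasurableSpace Ω] (P : Measure Ω) [IsProbabilityMeasure P]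
    (g : Lat d → Ω → ℂ) (hm : ∀ n, Measurable (g n)) (hind : iIndepFun g P)
    (hg : ∀ n, P.map (g n) = stdComplexGaussian) {c l : Lat d → ℝ} (hc : ∀ n, 0 ≤ c n)
    (hl : ∀ n, 0 < l n) (hq : Summable fun n => c n * l n ^ 2)
    {v : Lat d → ℂ} (hv : Summable fun n => c n * ‖v n‖ ^ 2) {ε : ℝ} (hε : 0 < ε) :
    0 < P {ω | ∑' n, ENNReal.ofReal (c n * ‖g n ω * (l n : ℂ) - v n‖ ^ 2)
      < ENNReal.ofReal ε} := by
  classical
  set q : Lat d → ℝ := fun n => c n * l n ^ 2 with hqd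
  have hq0 : ∀ n, 0 ≤ q n := fun n => mul_nonneg (hc n) (sq_nonneg _)
  set w : Lat d → ℝ := fun n => c n * ‖v n‖ ^ 2 with hwd
  have hw0 : ∀ n, 0 ≤ w n := fun n => mul_nonneg (hc n) (sq_nonneg _)
  set mom : ℝ≥0∞ := ∫⁻ z, ‖z‖ₑ ^ 2 ∂stdComplexGaussian with hmom
  have hmomT : mom ≠ ∞ := std_moment_sq.ne
  have hm0 : 0 ≤ mom.toReal := ENNReal.toReal_nonneg
  set η : ℝ := ε / (16 * (mom.toReal + 1)) with hη
  have hη0 : 0 < η := by positivity
  obtain ⟨s, hs, hs'⟩ : ∃ s : Finset (Lat d), (∑' n, q n) - η < ∑ n ∈ s, q n ∧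
      (∑' n, w n) - ε / 8 < ∑ n ∈ s, w n := by
    have h1 : Tendsto (fun s : Finset (Lat d) => ∑ n ∈ s, q n) atTop (𝓝 (∑' n, q n)) := hq.hasSum
    have h2 : Tendsto (fun s : Finset (Lat d) => ∑ n ∈ s, w n) atTop (𝓝 (∑' n, w n)) := hv.hasSum
    exact ((h1.eventually (lt_mem_nhds (sub_lt_self _ hη0))).and
      (h2.eventually (lt_mem_nhds (sub_lt_self _ (by positivity : 0 < ε / 8))))).exists
  set q' : Lat d → ℝ := fun n => if n ∈ s then 0 else q n with hq'
  have hq'0 : ∀ n, 0 ≤ q' n := fun n => by simp only [hq']; split_ifs <;> simp [hq0]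
  have hq's : Summable q' := Summable.of_nonneg_of_le hq'0 (fun n => by
    simp only [hq']; split_ifs <;> simp [hq0]) hq
  have hq't : ∑' n, q' n < η := by
    have := tail_lt hq s
    simp only [hq']
    linarith
  set w' : Lat d → ℝ := fun n => if n ∈ s then 0 else w n with hw'
  have hw'0 : ∀ n, 0 ≤ w' n := fun n => by simp only [hw']; split_ifs <;> simp [hw0]
  have hw's : Summable w' := Summable.of_nonneg_of_le hw'0 (fun n => by
    simp only [hw']; split_ifs <;> simp [hw0]) hv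
  have hw't : ∑' n, w' n < ε / 8 := by
    have := tail_lt hv s
    simp only [hw']
    linarith
  -- the tail
  set τ : Ω → ℝ≥0∞ :=
    fun ω => ∑' n, if n ∈ s then 0 else ENNReal.ofReal (q n) * ‖g n ω‖ₑ ^ 2 with hτ
  have hτm : Measurable τ := meas_tail g s _ fun n _ => hm n
  have hτi : ∫⁻ ω, τ ω ∂P ≤ ENNReal.ofReal (ε / 16) := by
    have h1 : ∀ n, Measurable fun ω => if n ∈ s then (0 : ℝ≥0∞) else
        ENNReal.ofReal (q n) * ‖g n ω‖ₑ ^ 2 := by
      intro n
      by_cases hn : n ∈ s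
      · simp only [hn, if_true]; exact measurable_const
      · simp only [hn, if_false]; exact ((hm n).enorm.pow_const 2).const_mul _
    simp only [hτ]
    rw [lintegral_tsum fun n => (h1 n).aemeasurable]
    have h2 : ∀ n, ∫⁻ ω, (if n ∈ s then (0 : ℝ≥0∞) else ENNReal.ofReal (q n) * ‖g n ω‖ₑ ^ 2) ∂P =
        ENNReal.ofReal (q' n) * mom := by
      intro n
      by_cases hn : n ∈ s
      · simp [hn, hq']
      · simp only [hn, hq', if_false]
        rw [lintegral_const_mul _ ((hm n).enorm.pow_const 2), hmom, ← hg n,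
          lintegral_map (by fun_prop) (hm n)]
    simp_rw [h2]
    rw [ENNReal.tsum_mul_right, ← ENNReal.ofReal_tsum_of_nonneg hq'0 hq's,
      ← ENNReal.ofReal_toReal hmomT, ← ENNReal.ofReal_mul (tsum_nonneg hq'0)]
    apply ENNReal.ofReal_le_ofReal
    calc (∑' n, q' n) * mom.toReal ≤ η * (mom.toReal + 1) := by
          gcongr
          linarith
      _ = ε / 16 := by rw [hη]; field_simp
  have hB : 0 < P {ω | τ ω < ENNReal.ofReal (ε / 8)} := by
    have h1 := mul_meas_ge_le_lintegral (μ := P) hτm (ENNReal.ofReal (ε / 8))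
    have h2 : P {ω | ENNReal.ofReal (ε / 8) ≤ τ ω} ≤ 1 / 2 := by
      have h3 : ENNReal.ofReal (ε / 8) * P {ω | ENNReal.ofReal (ε / 8) ≤ τ ω} ≤
          ENNReal.ofReal (ε / 8) * (1 / 2) := by
        refine (h1.trans hτi).trans (le_of_eq ?_)
        rw [show (1 / 2 : ℝ≥0∞) = ENNReal.ofReal (1 / 2) by
          rw [ENNReal.ofReal_div_of_pos (by norm_num)]; simp, ← ENNReal.ofReal_mul (by positivity)]
        congr 1
        ring
      exact (ENNReal.mul_le_mul_iff_right (ENNReal.ofReal_pos.2 (by positivity)).ne'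
        ENNReal.ofReal_ne_top).1 h3
    have h3 : {ω | τ ω < ENNReal.ofReal (ε / 8)} = {ω | ENNReal.ofReal (ε / 8) ≤ τ ω}ᶜ := by
      ext ω; simp
    rw [h3, prob_compl_eq_one_sub (measurableSet_le measurable_const hτm)]
    have h4 : (1 / 2 : ℝ≥0∞) < 1 := by
      rw [one_div]; exact ENNReal.one_half_lt_one
    exact tsub_pos_of_lt (h2.trans_lt h4)
  -- the low modes
  set Q : ℝ := ∑ n ∈ s, q n with hQ
  have hQ0 : 0 ≤ Q := Finset.sum_nonneg fun n _ => hq0 n
  set r : ℝ := Real.sqrt (ε / (4 * (Q + 1))) with hr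
  have hr0 : 0 < r := Real.sqrt_pos.2 (by positivity)
  have hr2 : r ^ 2 = ε / (4 * (Q + 1)) := Real.sq_sqrt (by positivity)
  set a : Lat d → ℂ := fun n => v n / (l n : ℂ) with had
  have hA : 0 < P (⋂ n ∈ s, g n ⁻¹' closedBall (a n) r) := by
    rw [hind.measure_inter_preimage_eq_mul s fun n _ => measurableSet_closedBall]
    rw [pos_iff_ne_zero, Finset.prod_ne_zero_iff]
    intro n _
    rw [← Measure.map_apply (hm n) measurableSet_closedBall, hg n]
    exact (std_pos (a n) hr0).ne'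
  -- independence
  have hI := indep_iSup_of_disjoint (m := fun n => MeasurableSpace.comap (g n) inferInstance)
    (fun n => (hm n).comap_le) hind (S := (s : Set (Lat d))) (T := (s : Set (Lat d))ᶜ)
    disjoint_compl_right
  have hAm : MeasurableSet[⨆ n ∈ (s : Set (Lat d)), MeasurableSpace.comap (g n) inferInstance]
      (⋂ n ∈ s, g n ⁻¹' closedBall (a n) r) :=
    @meas_low d Ω (⨆ n ∈ (s : Set (Lat d)), MeasurableSpace.comap (g n) inferInstance) g s a r
      fun n hn => Measurable.of_comap_le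
        (le_iSup₂_of_le (f := fun n (_ : n ∈ (s : Set (Lat d))) =>
          MeasurableSpace.comap (g n) inferInstance) n hn le_rfl)
  have hBm : MeasurableSet[⨆ n ∈ (s : Set (Lat d))ᶜ, MeasurableSpace.comap (g n) inferInstance]
      {ω | τ ω < ENNReal.ofReal (ε / 8)} := by
    have h1 := @meas_tail d Ω (⨆ n ∈ (s : Set (Lat d))ᶜ, MeasurableSpace.comap (g n) inferInstance)
      g s (fun n => ENNReal.ofReal (q n)) fun n hn => Measurable.of_comap_le
        (le_iSup₂_of_le (f := fun n (_ : n ∈ (s : Set (Lat d))ᶜ) =>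
          MeasurableSpace.comap (g n) inferInstance) n hn le_rfl)
    exact h1 measurableSet_Iio
  have hAB := (Indep_iff _ _ _).1 hI _ _ hAm hBm
  have hpos : 0 < P ((⋂ n ∈ s, g n ⁻¹' closedBall (a n) r) ∩
      {ω | τ ω < ENNReal.ofReal (ε / 8)}) := by
    rw [hAB]
    exact ENNReal.mul_pos hA.ne' hB.ne'
  refine hpos.trans_le (measure_mono ?_)
  rintro ω ⟨hω1, hω2⟩
  simp only [mem_iInter, mem_preimage, mem_closedBall, dist_eq_norm] at hω1
  simp only [mem_ofPred_eq] at hω2 ⊢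
  have h1 : ∀ n, ENNReal.ofReal (c n * ‖g n ω * (l n : ℂ) - v n‖ ^ 2) ≤
      (if n ∈ s then ENNReal.ofReal (q n * r ^ 2) else 0) +
      (2 * (if n ∈ s then 0 else ENNReal.ofReal (q n) * ‖g n ω‖ₑ ^ 2) +
        ENNReal.ofReal (2 * w' n)) := by
    intro n
    by_cases hn : n ∈ s
    · simp only [hn, if_true]
      refine le_trans (ENNReal.ofReal_le_ofReal ?_) le_self_add
      have h2 : g n ω * (l n : ℂ) - v n = (g n ω - a n) * (l n : ℂ) := by
        have : (l n : ℂ) ≠ 0 := by exact_mod_cast (hl n).ne'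
        rw [had]
        field_simp
      rw [h2, norm_mul, Complex.norm_real, Real.norm_of_nonneg (hl n).le, mul_pow, hqd]
      have h3 : ‖g n ω - a n‖ ^ 2 ≤ r ^ 2 := pow_le_pow_left₀ (norm_nonneg _) (hω1 n hn) 2
      calc c n * (‖g n ω - a n‖ ^ 2 * l n ^ 2) = c n * l n ^ 2 * ‖g n ω - a n‖ ^ 2 := by ring
        _ ≤ c n * l n ^ 2 * r ^ 2 := mul_le_mul_of_nonneg_left h3 (hq0 n)
    · simp only [hn, hw', if_false, zero_add]
      have h2 : ENNReal.ofReal (q n) * ‖g n ω‖ₑ ^ 2 = ENNReal.ofReal (q n * ‖g n ω‖ ^ 2) := by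
        rw [ENNReal.ofReal_mul (hq0 n), ENNReal.ofReal_pow (norm_nonneg _), ofReal_norm]
      have h4 : (2 : ℝ≥0∞) = ENNReal.ofReal 2 := by simp
      rw [h2, h4, ← ENNReal.ofReal_mul (by norm_num), ← ENNReal.ofReal_add
        (mul_nonneg (by norm_num) (mul_nonneg (hq0 n) (sq_nonneg _)))
        (mul_nonneg (by norm_num) (hw0 n))]
      apply ENNReal.ofReal_le_ofReal
      have h5 : ‖g n ω * (l n : ℂ) - v n‖ ≤ ‖g n ω‖ * l n + ‖v n‖ := by
        refine (norm_sub_le _ _).trans ?_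
        rw [norm_mul, Complex.norm_real, Real.norm_of_nonneg (hl n).le]
      have h6 : ‖g n ω * (l n : ℂ) - v n‖ ^ 2 ≤ 2 * (‖g n ω‖ * l n) ^ 2 + 2 * ‖v n‖ ^ 2 := by
        have h7 := pow_le_pow_left₀ (norm_nonneg _) h5 2
        nlinarith [sq_nonneg (‖g n ω‖ * l n - ‖v n‖)]
      calc c n * ‖g n ω * (l n : ℂ) - v n‖ ^ 2
          ≤ c n * (2 * (‖g n ω‖ * l n) ^ 2 + 2 * ‖v n‖ ^ 2) :=
            mul_le_mul_of_nonneg_left h6 (hc n)
        _ = 2 * (q n * ‖g n ω‖ ^ 2) + 2 * w n := by rw [hqd, hwd]; ring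
  calc ∑' n, ENNReal.ofReal (c n * ‖g n ω * (l n : ℂ) - v n‖ ^ 2)
      ≤ ∑' n, ((if n ∈ s then ENNReal.ofReal (q n * r ^ 2) else 0) +
        (2 * (if n ∈ s then 0 else ENNReal.ofReal (q n) * ‖g n ω‖ₑ ^ 2) +
          ENNReal.ofReal (2 * w' n))) := ENNReal.tsum_le_tsum h1
    _ = (∑' n, if n ∈ s then ENNReal.ofReal (q n * r ^ 2) else 0) +
        (2 * τ ω + ∑' n, ENNReal.ofReal (2 * w' n)) := by
        rw [ENNReal.tsum_add, ENNReal.tsum_add, ENNReal.tsum_mul_left]
    _ = ENNReal.ofReal (Q * r ^ 2) + (2 * τ ω + ENNReal.ofReal (2 * ∑' n, w' n)) := by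
        congr 1
        · rw [tsum_eq_sum (s := s) (fun n hn => if_neg hn),
            Finset.sum_congr rfl fun n hn => if_pos hn,
            ← ENNReal.ofReal_sum_of_nonneg fun n _ => mul_nonneg (hq0 n) (sq_nonneg r), hQ,
            Finset.sum_mul]
        · rw [← ENNReal.ofReal_tsum_of_nonneg (fun n => mul_nonneg (by norm_num) (hw'0 n))
            (hw's.mul_left 2), tsum_mul_left]
    _ ≤ ENNReal.ofReal (ε / 4) + (2 * ENNReal.ofReal (ε / 8) + ENNReal.ofReal (ε / 4)) := by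
        gcongr
        · rw [hr2, mul_div_assoc', div_le_div_iff₀ (by positivity) (by positivity)]
          nlinarith
        · linarith
    _ = ENNReal.ofReal (3 * ε / 4) := by
        have h4 : (2 : ℝ≥0∞) = ENNReal.ofReal 2 := by simp
        rw [h4, ← ENNReal.ofReal_mul (by norm_num), ← ENNReal.ofReal_add (by positivity)
          (by positivity), ← ENNReal.ofReal_add (by positivity) (by positivity)]
        congr 1
        ring
    _ < ENNReal.ofReal ε := by
        rw [ENNReal.ofReal_lt_ofReal_iff hε]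
        linarith

theorem summable_datum {α : ℝ} (hα : (k : ℝ) + d / 2 < α) :
    Summable fun n : Lat d => (1 + sqNorm n) ^ k * (Real.sqrt (1 + sqNorm n) ^ (-α)) ^ 2 := by
  refine (summable_rpow_weight (d := d) (β := 2 * α - 2 * k) (by linarith)).congr fun n => ?_
  have h0 := sqNorm_nonneg n
  have h1 : 0 < 1 + sqNorm n := by linarith
  have h2 : 0 < Real.sqrt (1 + sqNorm n) := Real.sqrt_pos.2 h1
  have h3 : (1 + sqNorm n) ^ k = Real.sqrt (1 + sqNorm n) ^ ((2 : ℝ) * k) := by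
    rw [Real.rpow_mul h2.le, Real.rpow_natCast, Real.rpow_two, Real.sq_sqrt h1.le]
  rw [h3, ← Real.rpow_natCast (Real.sqrt (1 + sqNorm n) ^ (-α)) 2, ← Real.rpow_mul h2.le,
    ← Real.rpow_add h2, ← Real.rpow_neg h2.le]
  congr 1
  push_cast
  ring

/-- **Full support.** For `α > k + d/2` every ball of `H^k`, around any point of `H^k`, is charged
by the law of the datum. -/
theorem support_pos {Ω : Type*} [MeasurableSpace Ω] (P : Measure Ω) [IsProbabilityMeasure P]
    (g : Lat d → Ω → ℂ) (hm : ∀ n, Measurable (g n)) (hind : iIndepFun g P)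
    (hg : ∀ n, P.map (g n) = stdComplexGaussian) {α : ℝ} (hα : (k : ℝ) + d / 2 < α)
    {v : Lat d → ℂ} (hv : MemSobolev k v) {ε : ℝ} (hε : 0 < ε) :
    0 < P {ω | MemSobolev k (datum g α ω) ∧ MemSobolev k (fun n => datum g α ω n - v n) ∧
      sobolevSq k (fun n => datum g α ω n - v n) < ε} := by
  have hc : ∀ n : Lat d, (0 : ℝ) ≤ (1 + sqNorm n) ^ k := fun n => by
    have := sqNorm_nonneg n
    positivity
  have hl : ∀ n : Lat d, 0 < Real.sqrt (1 + sqNorm n) ^ (-α) := fun n => by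
    have h0 := sqNorm_nonneg n
    exact Real.rpow_pos_of_pos (Real.sqrt_pos.2 (by linarith)) _
  refine (ball_pos P g hm hind hg hc hl (summable_datum hα) hv hε).trans_le (measure_mono ?_)
  intro ω hω
  simp only [mem_ofPred_eq] at hω ⊢
  have hnn : ∀ n, 0 ≤ (1 + sqNorm n) ^ k * ‖datum g α ω n - v n‖ ^ 2 := fun n =>
    mul_nonneg (hc n) (sq_nonneg _)
  have hω' : ∑' n, ENNReal.ofReal ((1 + sqNorm n) ^ k * ‖datum g α ω n - v n‖ ^ 2)
      < ENNReal.ofReal ε := hω
  have hsum : MemSobolev k (fun n => datum g α ω n - v n) := by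
    have h1 : ∑' n, ENNReal.ofReal ((1 + sqNorm n) ^ k * ‖datum g α ω n - v n‖ ^ 2) ≠ ∞ :=
      (hω'.trans ENNReal.ofReal_lt_top).ne
    exact (ENNReal.summable_toReal h1).congr fun n => ENNReal.toReal_ofReal (hnn n)
  refine ⟨?_, hsum, ?_⟩
  · refine Summable.of_nonneg_of_le (fun n => mul_nonneg (hc n) (sq_nonneg _)) (fun n => ?_)
      ((Summable.mul_left 2 hsum).add (Summable.mul_left 2 hv))
    have h2 : ‖datum g α ω n‖ ≤ ‖datum g α ω n - v n‖ + ‖v n‖ := by
      have := norm_add_le (datum g α ω n - v n) (v n)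
      simpa using this
    have h3 : ‖datum g α ω n‖ ^ 2 ≤ 2 * ‖datum g α ω n - v n‖ ^ 2 + 2 * ‖v n‖ ^ 2 := by
      have h7 := pow_le_pow_left₀ (norm_nonneg _) h2 2
      nlinarith [sq_nonneg (‖datum g α ω n - v n‖ - ‖v n‖)]
    have h4 := mul_le_mul_of_nonneg_left h3 (hc n)
    linarith
  · have h5 := hω'
    rw [← ENNReal.ofReal_tsum_of_nonneg hnn hsum, ENNReal.ofReal_lt_ofReal_iff hε] at h5
    exact h5

end Vale.Agent.P139.R3.H966
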